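import Vale.Agent.P069.Dual

namespace Vale.Agent.P069

noncomputable def tr (σ r : ℝ) : ℝ := if 0 ≤ σ then min r 0 else max r 0

lemma tr_zero (σ : ℝ) : tr σ 0 = 0 := by unfold tr; split_ifs <;> simp

lemma tr_incr (σ r d : ℝ) :
    (tr σ (d + r) - tr σ r) ^ 2 ≤ d ^ 2 ∧ (d - (tr σ (d + r) - tr σ r)) ^ 2 ≤ d ^ 2 := by
  unfold tr
  split_ifs
  · rcases le_total (d + r) 0 with h1 | h1 <;> rcases le_total r 0 with h2 | h2 <;>
      simp only [min_eq_left, min_eq_right, h1, h2] <;> constructor <;> nlinarith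
  · rcases le_total (d + r) 0 with h1 | h1 <;> rcases le_total r 0 with h2 | h2 <;>
      simp only [max_eq_left, max_eq_right, h1, h2] <;> constructor <;> nlinarith

lemma tr_sq (σ r : ℝ) : tr σ r ^ 2 ≤ r ^ 2 ∧ (r - tr σ r) ^ 2 ≤ r ^ 2 := by
  simpa [tr_zero] using tr_incr σ 0 r

lemma tr_sign (σ r : ℝ) : σ * tr σ r ≤ 0 ∧ 0 ≤ σ * (r - tr σ r) := by
  unfold tr
  split_ifs with h
  · exact ⟨mul_nonpos_of_nonneg_of_nonpos h (min_le_right _ _),
      mul_nonneg h (sub_nonneg.mpr (min_le_left _ _))⟩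
  · push Not at h
    exact ⟨mul_nonpos_of_nonpos_of_nonneg h.le (le_max_right _ _),
      mul_nonneg_of_nonpos_of_nonpos h.le (sub_nonpos.mpr (le_max_left _ _))⟩

def incr (W : I → ℝ) : I → ℝ
  | (n, []) => W (n, [])
  | (n, a :: l) => W (n, a :: l) - W (n, l)

lemma ps_incr (W : I → ℝ) (n : ℕ) (l : List ℕ) : ps (incr W) n l = W (n, l) := by
  induction l with
  | nil => simp [ps, incr]
  | cons a l ih => simp [ps, incr, ih]

lemma mem_br_self (n : ℕ) (l : List ℕ) : (n, l) ∈ br n l := by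
  cases l <;> simp [br]

lemma br_closed (m : ℕ) (l' : List ℕ) (n a : ℕ) (l : List ℕ) (h : (n, a :: l) ∈ br m l') :
    (n, l) ∈ br m l' := by
  induction l' with
  | nil => simp [br] at h
  | cons b l' ih =>
    simp only [br, Finset.mem_insert] at h ⊢
    rcases h with h | h
    · simp only [Prod.mk.injEq, List.cons.injEq] at h
      obtain ⟨rfl, -, rfl⟩ := h
      exact Or.inr (mem_br_self _ _)
    · exact Or.inr (ih h)

lemma exists_closed (F : Finset I) :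
    ∃ T : Finset I, F ⊆ T ∧ ∀ n a l, (n, a :: l) ∈ T → (n, l) ∈ T := by
  refine ⟨F.biUnion fun t => br t.1 t.2, fun t ht => Finset.mem_biUnion.mpr
    ⟨t, ht, mem_br_self _ _⟩, fun n a l h => ?_⟩
  obtain ⟨s, hs, h⟩ := Finset.mem_biUnion.mp h
  exact Finset.mem_biUnion.mpr ⟨s, hs, br_closed _ _ _ _ _ h⟩

lemma split (u v : Y) (T : Set I) (hT : ∀ n a l, (n, a :: l) ∈ T → (n, l) ∈ T)
    (hu : ∀ t ∉ T, u.val t = 0) :
    ∃ w₁ w₂ : Y, w₁ + w₂ = res Tᶜ v ∧ (∀ t ∈ T, w₁.val t = 0) ∧ (∀ t ∈ T, w₂.val t = 0) ∧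
      ‖w₁‖ ≤ 2 * ‖v‖ ∧ ‖w₂‖ ≤ 2 * ‖v‖ ∧ ∀ b : ℝ, 0 ≤ b →
        ‖u + b • w₁‖ ^ 2 ≤ ‖u‖ ^ 2 + 4 * b ^ 2 * ‖v‖ ^ 2 ∧
        ‖u - b • w₂‖ ^ 2 ≤ ‖u‖ ^ 2 + 4 * b ^ 2 * ‖v‖ ^ 2 := by
  set v' := res Tᶜ v with hv'
  have hv0 : ∀ t ∈ T, v'.val t = 0 := fun t ht => by simp [hv', res_val, ht]
  have hv1 : ∀ t ∉ T, v'.val t = v.val t := fun t ht => by simp [hv', res_val, ht]
  have hvsq : ∀ t, v'.val t ^ 2 ≤ v.val t ^ 2 := fun t => by
    by_cases ht : t ∈ T
    · rw [hv0 t ht]; simp [sq_nonneg]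
    · rw [hv1 t ht]
  have hps0 : ∀ n l, (n, l) ∈ T → ps v'.val n l = 0 := by
    intro n l
    induction l with
    | nil => intro h; simp [ps, hv0 _ h]
    | cons a l ih => intro h; simp [ps, hv0 _ h, ih (hT _ _ _ h)]
  have hpsb : ∀ n l, l.length ≤ n → ∃ c, |c| ≤ S v n ∧ ps v'.val n l = ps v.val n l - c := by
    intro n l
    induction l with
    | nil =>
      intro hl
      by_cases h : (n, []) ∈ T
      · exact ⟨_, le_S v n [] hl, by rw [hps0 _ _ h, sub_self]⟩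
      · exact ⟨0, by simpa using S_nonneg v n, by simp [ps, hv1 _ h]⟩
    | cons a l ih =>
      intro hl
      by_cases h : (n, a :: l) ∈ T
      · exact ⟨_, le_S v n _ hl, by rw [hps0 _ _ h, sub_self]⟩
      · obtain ⟨c, hc, e⟩ := ih (by simp at hl; omega)
        exact ⟨c, hc, by simp only [ps, hv1 _ h, e]; ring⟩
  have hpsq : ∀ n l, l.length ≤ n → ps v'.val n l ^ 2 ≤ 4 * S v n ^ 2 := by
    intro n l hl
    obtain ⟨c, hc, e⟩ := hpsb n l hl
    have h1 := le_S v n l hl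
    have h2 : |ps v'.val n l| ≤ 2 * S v n := by
      rw [e]; linarith [abs_sub (ps v.val n l) c]
    rw [← sq_abs]
    nlinarith [abs_nonneg (ps v'.val n l)]
  let W : I → ℝ := fun t => tr (ps u.val t.1 t.2) (ps v'.val t.1 t.2)
  have hw : ∀ t, incr W t ^ 2 ≤ v'.val t ^ 2 ∧ (v'.val t - incr W t) ^ 2 ≤ v'.val t ^ 2 := by
    rintro ⟨n, _ | ⟨a, l⟩⟩
    · exact tr_sq _ _
    · by_cases h : (n, a :: l) ∈ T
      · simp [incr, W, hps0 _ _ h, hps0 _ _ (hT _ _ _ h), tr_zero, hv0 _ h]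
      · have := tr_incr (ps u.val n l) (ps v'.val n l) (v'.val (n, a :: l))
        simpa [incr, W, ps, hu _ h] using this
  have hfin : (Function.support (incr W)).Finite := v'.fin.subset fun t ht h => by
    have := (hw t).1
    rw [h] at this
    exact ht (by nlinarith [sq_nonneg (incr W t)])
  let w₁ : Y := Y.mk (incr W) hfin
  have p1 : ∀ n l, ps w₁.val n l = W (n, l) := fun n l => ps_incr W n l
  have p2 : ∀ n l, ps (v' - w₁).val n l = ps v'.val n l - W (n, l) := fun n l => by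
    have := ps_add (v' - w₁).val w₁.val n l
    rw [← Y.val_add, sub_add_cancel, p1] at this
    linarith
  have z1 : ∀ t ∈ T, w₁.val t = 0 := fun t ht => by
    have := (hw t).1
    rw [hv0 t ht] at this
    change incr W t = 0
    nlinarith [sq_nonneg (incr W t)]
  have z2 : ∀ t ∈ T, (v' - w₁).val t = 0 := fun t ht => by
    simp only [Y.val_sub, Pi.sub_apply, hv0 t ht, z1 t ht, sub_self]
  refine ⟨w₁, v' - w₁, by abel, z1, z2, ?_, ?_, fun b hb => ⟨?_, ?_⟩⟩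
  · apply le_of_sq_le_sq_aux _ (by positivity)
    have := normsq_le w₁ v v 4 0 (fun n => by
      simp only [zero_mul, add_zero]
      exact S_sq_le _ _ _ fun l hl => by
        rw [p1]; exact (tr_sq _ _).1.trans (hpsq n l hl)) (fun t => by
      have := (hw t).1.trans (hvsq t)
      change incr W t ^ 2 ≤ _
      nlinarith [sq_nonneg (v.val t)])
    linarith
  · apply le_of_sq_le_sq_aux _ (by positivity)
    have := normsq_le (v' - w₁) v v 4 0 (fun n => by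
      simp only [zero_mul, add_zero]
      exact S_sq_le _ _ _ fun l hl => by
        rw [p2]; exact (tr_sq _ _).2.trans (hpsq n l hl)) (fun t => by
      have := (hw t).2.trans (hvsq t)
      change (v'.val t - incr W t) ^ 2 ≤ _
      nlinarith [sq_nonneg (v.val t)])
    linarith
  · have := normsq_le (u + b • w₁) u v 1 (4 * b ^ 2) (fun n =>
      S_sq_le _ _ _ fun l hl => by
        rw [Y.val_add, Y.val_smul, ps_add, ps_smul, p1]
        have h1 := ps_sq_le_S u n l hl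
        have h2 := (tr_sq (ps u.val n l) (ps v'.val n l)).1.trans (hpsq n l hl)
        have h3 := (tr_sign (ps u.val n l) (ps v'.val n l)).1
        simp only [W]
        nlinarith [mul_le_mul_of_nonneg_left h2 (sq_nonneg b), mul_nonneg hb (neg_nonneg.mpr h3)])
      (fun t => by
        simp only [Y.val_add, Y.val_smul, Pi.add_apply, Pi.smul_apply, smul_eq_mul]
        by_cases ht : t ∈ T
        · rw [z1 t ht]
          nlinarith [mul_nonneg (sq_nonneg b) (sq_nonneg (v.val t))]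
        · have h2 : w₁.val t ^ 2 ≤ v.val t ^ 2 := (hw t).1.trans (hvsq t)
          rw [hu t ht]
          nlinarith [mul_le_mul_of_nonneg_left h2 (sq_nonneg b),
            mul_nonneg (sq_nonneg b) (sq_nonneg (v.val t))])
    linarith
  · have := normsq_le (u + (-b) • (v' - w₁)) u v 1 (4 * b ^ 2) (fun n =>
      S_sq_le _ _ _ fun l hl => by
        rw [Y.val_add, Y.val_smul, ps_add, ps_smul, p2]
        have h1 := ps_sq_le_S u n l hl
        have h2 := (tr_sq (ps u.val n l) (ps v'.val n l)).2.trans (hpsq n l hl)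
        have h3 := (tr_sign (ps u.val n l) (ps v'.val n l)).2
        simp only [W]
        nlinarith [mul_le_mul_of_nonneg_left h2 (sq_nonneg b), mul_nonneg hb h3])
      (fun t => by
        simp only [Y.val_add, Y.val_smul, Pi.add_apply, Pi.smul_apply, smul_eq_mul]
        by_cases ht : t ∈ T
        · rw [z2 t ht]
          nlinarith [mul_nonneg (sq_nonneg b) (sq_nonneg (v.val t))]
        · have h2 : (v' - w₁).val t ^ 2 ≤ v.val t ^ 2 := (hw t).2.trans (hvsq t)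
          rw [hu t ht]
          nlinarith [mul_le_mul_of_nonneg_left h2 (sq_nonneg b),
            mul_nonneg (sq_nonneg b) (sq_nonneg (v.val t))])
    rw [neg_smul, ← sub_eq_add_neg] at this
    linarith

noncomputable def evalT (T : Finset I) : X →L[ℝ] (T → ℝ) :=
  ContinuousLinearMap.pi fun s : T => NormedSpace.inclusionInDoubleDual ℝ Y (e s)

lemma isCof_ker (T : Finset I) : IsCof (evalT T).ker :=
  ⟨(evalT T).isClosed_ker, (LinearMap.quotKerEquivRange (evalT T).toLinearMap).symm.finiteDimensional⟩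

lemma apply_eq_zero (T : Finset I) (y : X) (hy : y ∈ (evalT T).ker) (u : Y)
    (hu : ∀ t ∉ T, u.val t = 0) : y u = 0 := by
  rw [eq_sum_e u T hu, map_sum]
  refine Finset.sum_eq_zero fun t ht => ?_
  have : y (e t) = 0 := congrFun (LinearMap.mem_ker.mp hy) ⟨t, ht⟩
  simp [this]

lemma amuc_num (τ t M xu x1 x2 y1 y2 : ℝ) (hτ0 : 0 < τ) (hτ1 : τ ≤ 1) (hτt : τ ≤ t)
    (hxu : 1 - τ ^ 2 / 128 ≤ xu) (hy : 1 - τ ^ 2 / 128 ≤ y1 + y2)
    (hx1 : |x1| ≤ τ ^ 2 / 128 * 2) (hx2 : |x2| ≤ τ ^ 2 / 128 * 2)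
    (m1 : xu + τ / 8 * (x1 + t * y1) ≤ M * (1 + τ ^ 2 / 32))
    (m2 : xu - τ / 8 * (x2 - t * y2) ≤ M * (1 + τ ^ 2 / 32)) : τ ^ 2 / 50 ≤ M - 1 := by
  set ε := τ ^ 2 / 128 with hε
  have hε0 : 0 < ε := by positivity
  have hτ2 : τ ^ 2 ≤ 1 := by nlinarith
  have hε1 : ε ≤ 1 / 128 := by rw [hε]; linarith
  have s1 : τ * (1 - ε) ≤ t * (y1 + y2) := mul_le_mul hτt hy (by linarith) (by linarith)
  have s2 : 2 * (1 - ε) - τ / 8 * (4 * ε) + τ / 8 * (τ * (1 - ε)) ≤ 2 * (M * (1 + τ ^ 2 / 32)) := by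
    have a1 := neg_abs_le x1
    have a2 := le_abs_self x2
    have a3 : -(4 * ε) ≤ x1 - x2 := by linarith
    have a4 := mul_le_mul_of_nonneg_left a3 (by positivity : 0 ≤ τ / 8)
    have a5 := mul_le_mul_of_nonneg_left s1 (by positivity : 0 ≤ τ / 8)
    linarith
  by_contra hcon
  push Not at hcon
  have s3 : M * (1 + τ ^ 2 / 32) ≤ (1 + τ ^ 2 / 50) * (1 + τ ^ 2 / 32) :=
    mul_le_mul_of_nonneg_right (by linarith) (by positivity)
  have s4 : τ * ε ≤ ε := mul_le_of_le_one_left hε0.le hτ1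
  have s5 : τ ^ 2 * ε ≤ ε := mul_le_of_le_one_left hε0.le hτ2
  have s6 : τ ^ 2 * τ ^ 2 ≤ τ ^ 2 := mul_le_of_le_one_left (sq_nonneg _) hτ2
  have s7 : 0 < τ ^ 2 := by positivity
  nlinarith

lemma amuc_num2 (τ a b c : ℝ) (hb0 : 0 ≤ b) (hb : b ≤ 1) (hc0 : 0 ≤ c) (hc : c ≤ 1)
    (h : a ^ 2 ≤ b ^ 2 + 4 * (τ / 8) ^ 2 * c ^ 2) : a ≤ 1 + τ ^ 2 / 32 := by
  have hu2 : b ^ 2 ≤ 1 := by nlinarith
  have hv2 : c ^ 2 ≤ 1 := by nlinarith
  apply le_of_sq_le_sq_aux _ (by positivity)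
  nlinarith [sq_nonneg (τ ^ 2), mul_le_mul_of_nonneg_left hv2 (sq_nonneg τ)]

lemma amuc_key (t τ : ℝ) (hτ0 : 0 < τ) (hτ1 : τ ≤ 1) (hτt : τ ≤ t) (x : X) (hx : ‖x‖ = 1) :
    ∃ T : Finset I, ∀ y ∈ (evalT T).ker, ‖y‖ = 1 →
      τ ^ 2 / 50 ≤ max ‖x + t • y‖ ‖x - t • y‖ - 1 := by
  classical
  have hε0 : 0 < τ ^ 2 / 128 := by positivity
  obtain ⟨u, hu, hxu⟩ := exists_near x _ hε0
  obtain ⟨F₁, hF₁⟩ := tailY x _ hε0
  obtain ⟨T, hT1, hT2⟩ := exists_closed (u.fin.toFinset ∪ F₁)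
  have huT : ∀ s ∉ T, u.val s = 0 := fun s hs => by
    by_contra hne
    exact hs (hT1 (Finset.mem_union_left _ (by simpa using hne)))
  refine ⟨T, fun y hy hy1 => ?_⟩
  obtain ⟨v, hv, hyv⟩ := exists_near y _ hε0
  obtain ⟨w₁, w₂, hsum, z1, z2, n1, n2, hb⟩ := split u v (T : Set I) hT2 huT
  obtain ⟨b1, b2⟩ := hb (τ / 8) (by positivity)
  rw [hx] at hxu
  rw [hy1] at hyv
  have y1 : y w₁ + y w₂ = y v := by
    have : y (v - res (T : Set I)ᶜ v) = 0 := apply_eq_zero T y hy _ fun s hs => by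
      simp [res_val, hs]
    rw [map_sub] at this
    rw [← map_add, hsum]; linarith
  have y0 : y u = 0 := apply_eq_zero T y hy u huT
  have x1 : |x w₁| ≤ τ ^ 2 / 128 * 2 :=
    (hF₁ w₁ fun s hs => z1 s (hT1 (Finset.mem_union_right _ hs))).trans
      (mul_le_mul_of_nonneg_left (by linarith) hε0.le)
  have x2 : |x w₂| ≤ τ ^ 2 / 128 * 2 :=
    (hF₁ w₂ fun s hs => z2 s (hT1 (Finset.mem_union_right _ hs))).trans
      (mul_le_mul_of_nonneg_left (by linarith) hε0.le)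
  have k1 := amuc_num2 τ _ _ _ (norm_nonneg _) hu (norm_nonneg _) hv b1
  have k2 := amuc_num2 τ _ _ _ (norm_nonneg _) hu (norm_nonneg _) hv b2
  have hM0 : 0 ≤ max ‖x + t • y‖ ‖x - t • y‖ := le_max_of_le_left (norm_nonneg _)
  have m1 : (x + t • y) (u + (τ / 8) • w₁) ≤ max ‖x + t • y‖ ‖x - t • y‖ * (1 + τ ^ 2 / 32) :=
    (le_abs_self _).trans (((x + t • y).le_opNorm _).trans
      (mul_le_mul (le_max_left _ _) k1 (norm_nonneg _) hM0))
  have m2 : (x - t • y) (u - (τ / 8) • w₂) ≤ max ‖x + t • y‖ ‖x - t • y‖ * (1 + τ ^ 2 / 32) :=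
    (le_abs_self _).trans (((x - t • y).le_opNorm _).trans
      (mul_le_mul (le_max_right _ _) k2 (norm_nonneg _) hM0))
  refine amuc_num τ t _ (x u) (x w₁) (x w₂) (y w₁) (y w₂) hτ0 hτ1 hτt hxu (by rw [y1]; exact hyv)
    x1 x2 (le_trans (le_of_eq ?_) m1) (le_trans (le_of_eq ?_) m2)
  · simp only [add_apply, smul_apply, map_add, map_smul, smul_eq_mul, y0]; ring
  · simp only [sub_apply, smul_apply, map_sub, map_smul, smul_eq_mul, y0]; ring

theorem amuc_bound (t : ℝ) (ht : 0 < t) :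
    ((min t 1 ^ 2 / 50 : ℝ) : EReal) ≤ amucModulus (fun x : X => ‖x‖) t := by
  unfold amucModulus
  refine le_iInf₂ fun x hx => ?_
  obtain ⟨T, hT⟩ := amuc_key t (min t 1) (lt_min ht one_pos) (min_le_right _ _) (min_le_left _ _)
    x hx
  refine le_iSup₂_of_le (evalT T).ker (isCof_ker T) ?_
  refine le_iInf₂ fun y hy => le_iInf fun hy1 => ?_
  exact EReal.coe_le_coe_iff.mpr (hT y hy hy1)

end Vale.Agent.P069
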