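import Mathlib

namespace Vale.Agent.P069

variable {X : Type} [NormedAddCommGroup X] [NormedSpace ℝ X]

/-- Closed subspaces of finite codimension. -/
def IsCof (F : Submodule ℝ X) : Prop :=
  IsClosed (F : Set X) ∧ FiniteDimensional ℝ (X ⧸ F)

/-- `N` is a norm on `X` equivalent to the given one. -/
def IsEquivNorm (N : X → ℝ) : Prop :=
  (∀ x y, N (x + y) ≤ N x + N y) ∧ (∀ (a : ℝ) (x : X), N (a • x) = |a| * N x) ∧
    ∃ c C : ℝ, 0 < c ∧ ∀ x, c * ‖x‖ ≤ N x ∧ N x ≤ C * ‖x‖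

/-- The modulus of asymptotic uniform convexity of `N`. -/
noncomputable def aucModulus (N : X → ℝ) (t : ℝ) : EReal :=
  ⨅ (x : X) (_ : N x = 1), ⨆ (F : Submodule ℝ X) (_ : IsCof F),
    ⨅ (y : X) (_ : y ∈ F) (_ : N y = 1), ((N (x + t • y) - 1 : ℝ) : EReal)

/-- The modulus of asymptotic midpoint uniform convexity of `N`. -/
noncomputable def amucModulus (N : X → ℝ) (t : ℝ) : EReal :=
  ⨅ (x : X) (_ : N x = 1), ⨆ (F : Submodule ℝ X) (_ : IsCof F),
    ⨅ (y : X) (_ : y ∈ F) (_ : N y = 1),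
      ((max (N (x + t • y)) (N (x - t • y)) - 1 : ℝ) : EReal)

def IsAUC (N : X → ℝ) : Prop := ∀ t : ℝ, 0 < t → 0 < aucModulus N t

def IsAMUC (N : X → ℝ) : Prop := ∀ t : ℝ, 0 < t → 0 < amucModulus N t

variable (X)

def AUCRenormable : Prop := ∃ N : X → ℝ, IsEquivNorm N ∧ IsAUC N

def AMUCRenormable : Prop := ∃ N : X → ℝ, IsEquivNorm N ∧ IsAMUC N

/-- Reflexivity: the canonical map into the bidual is onto. -/
def IsReflexiveSpace : Prop := Function.Surjective (NormedSpace.inclusionInDoubleDual ℝ X)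

end Vale.Agent.P069
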