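import Vale.Agent.P069.Space

namespace Vale.Agent.P069

abbrev X : Type := StrongDual ℝ Y

lemma le_of_sq_le_sq_aux {a b : ℝ} (h : a ^ 2 ≤ b ^ 2) (hb : 0 ≤ b) : a ≤ b :=
  le_trans (le_abs_self a) (abs_le_of_sq_le_sq' h hb |> fun h => abs_le.mpr h)

lemma pow_le_pow_left_iff_aux {a b c : ℝ} (h : a ^ 2 + c ≤ b ^ 2) (hc : 0 ≤ c) (hb : 0 ≤ b) :
    a ≤ b := le_of_sq_le_sq_aux (by linarith) hb

lemma ps_eq (u : I → ℝ) (n : ℕ) (l : List ℕ) : ps u n l = ∑ t ∈ br n l, u t := by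
  induction l with
  | nil => simp [ps, br]
  | cons a l ih =>
    have : (n, a :: l) ∉ br n l := fun h => by have := br_length n l _ h; simp at this
    simp [ps, br, Finset.sum_insert this, ih]

noncomputable def e (t : I) : Y :=
  Y.mk (Pi.single t 1) ((Set.finite_singleton t).subset Pi.support_single_subset)

@[simp] lemma e_val (t : I) : (e t).val = Pi.single t 1 := rfl

lemma norm_e_sq (t : I) : ‖e t‖ ^ 2 ≤ 2 := by
  have hs : HasSum (fun j => co (e t) j ^ 2)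
      (∑ j ∈ ({Sum.inl t.1, Sum.inr t} : Finset (ℕ ⊕ I)), co (e t) j ^ 2) := by
    refine hasSum_sum_of_ne_finset_zero ?_
    rintro (n | s) h
    · have hn : n ≠ t.1 := by rintro rfl; simp at h
      have : S (e t) n = 0 := S_eq_zero _ _ fun l => by
        rw [e_val, Pi.single_eq_of_ne]
        rintro rfl; exact hn rfl
      simp [co, this]
    · have hs : s ≠ t := by rintro rfl; simp at h
      simp [co, Pi.single_eq_of_ne hs]
  rw [(hasSum_co _).unique hs, Finset.sum_pair (by simp)]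
  have : S (e t) t.1 ^ 2 ≤ 1 := S_sq_le _ _ _ fun l _ => by
    rw [ps_eq, e_val, Finset.sum_pi_single']
    split_ifs <;> simp
  simp only [co, e_val, Pi.single_eq_same, abs_one, one_pow]
  linarith

lemma eq_sum_e (u : Y) (F : Finset I) (h : ∀ t ∉ F, u.val t = 0) :
    u = ∑ t ∈ F, u.val t • e t := by
  refine Y.ext fun s => ?_
  rw [Y.val_sum, Finset.sum_apply]
  simp only [Y.val_smul, e_val, Pi.smul_apply, smul_eq_mul, Pi.single_apply, mul_ite, mul_one,
    mul_zero, Finset.sum_ite_eq]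
  split_ifs with hs
  · rfl
  · exact h s hs

lemma val_sum_e (a : I → ℝ) (F : Finset I) (s : I) :
    (∑ t ∈ F, a t • e t).val s = if s ∈ F then a s else 0 := by
  rw [Y.val_sum, Finset.sum_apply]
  simp only [Y.val_smul, e_val, Pi.smul_apply, smul_eq_mul, Pi.single_apply, mul_ite, mul_one,
    mul_zero, Finset.sum_ite_eq]

lemma abs_val_le (u : Y) (t : I) : |u.val t| ≤ ‖u‖ := co_le_norm u (.inr t)

/-- coordinate functionals -/
noncomputable def es (t : I) : X :=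
  LinearMap.mkContinuous ⟨⟨fun u => u.val t, fun _ _ => rfl⟩, fun _ _ => rfl⟩ 1
    fun u => by rw [one_mul]; exact abs_val_le u t

@[simp] lemma es_apply (t : I) (u : Y) : es t u = u.val t := rfl

noncomputable def res (A : Set I) : Y →ₗ[ℝ] Y where
  toFun u := Y.mk (A.indicator u.val) (u.fin.subset fun t ht h => ht (by simp [Set.indicator_apply_eq_zero, h]))
  map_add' u v := Y.ext fun t => by by_cases h : t ∈ A <;> simp [h]
  map_smul' c u := Y.ext fun t => by by_cases h : t ∈ A <;> simp [h]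

lemma res_val (A : Set I) (u : Y) : (res A u).val = A.indicator u.val := rfl

def lo (N : ℕ) : Set I := {t | t.1 < N}
def hi (N : ℕ) : Set I := {t | N ≤ t.1}

lemma lo_add_hi (N : ℕ) (u : Y) : res (lo N) u + res (hi N) u = u := Y.ext fun t => by
  by_cases h : t.1 < N
  · have h1 : t ∈ lo N := h
    have h2 : t ∉ hi N := by simp [hi, h]
    simp [res_val, h1, h2]
  · have h1 : t ∉ lo N := h
    have h2 : t ∈ hi N := by simpa [hi] using h
    simp [res_val, h1, h2]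

lemma lo_hi_sq (N : ℕ) (u : Y) : ‖res (lo N) u‖ ^ 2 + ‖res (hi N) u‖ ^ 2 ≤ ‖u‖ ^ 2 := by
  refine normsq_ge _ _ _ (fun n => ?_) (fun t => ?_)
  · by_cases h : n < N
    · rw [S_congr (res (lo N) u) u n fun l => by simp [res_val, lo, h],
        S_eq_zero (res (hi N) u) n fun l => by simp [res_val, hi, h]]
      simp
    · rw [S_congr (res (hi N) u) u n fun l => by simp [res_val, hi, not_lt.mp h],
        S_eq_zero (res (lo N) u) n fun l => by simp [res_val, lo, h]]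
      simp
  · by_cases h : t.1 < N
    · simp [res_val, lo, hi, h]
    · simp [res_val, lo, hi, h, not_lt.mp h]

lemma norm_lo_le (N : ℕ) (u : Y) : ‖res (lo N) u‖ ≤ ‖u‖ :=
  pow_le_pow_left_iff_aux (lo_hi_sq N u) (sq_nonneg _) (norm_nonneg _)

lemma norm_hi_le (N : ℕ) (u : Y) : ‖res (hi N) u‖ ≤ ‖u‖ :=
  pow_le_pow_left_iff_aux (c := ‖res (lo N) u‖ ^ 2) (by rw [add_comm]; exact lo_hi_sq N u)
    (sq_nonneg _) (norm_nonneg _)

noncomputable def loL (N : ℕ) : Y →L[ℝ] Y :=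
  (res (lo N)).mkContinuous 1 fun u => by simpa using norm_lo_le N u

noncomputable def hiL (N : ℕ) : Y →L[ℝ] Y :=
  (res (hi N)).mkContinuous 1 fun u => by simpa using norm_hi_le N u

@[simp] lemma loL_apply (N : ℕ) (u : Y) : loL N u = res (lo N) u := rfl
@[simp] lemma hiL_apply (N : ℕ) (u : Y) : hiL N u = res (hi N) u := rfl

lemma normsq_lo_hi (N : ℕ) (u v : Y) (s : ℝ) (hu : ∀ t : I, N ≤ t.1 → u.val t = 0) :
    ‖u + s • res (hi N) v‖ ^ 2 ≤ ‖u‖ ^ 2 + s ^ 2 * ‖v‖ ^ 2 := by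
  have := normsq_le (u + s • res (hi N) v) u v 1 (s ^ 2) (fun n => ?_) (fun t => ?_)
  · simpa using this
  · by_cases h : n < N
    · rw [S_congr _ u n fun l => by simp [res_val, hi, h]]
      nlinarith [mul_nonneg (sq_nonneg s) (sq_nonneg (S v n))]
    · rw [S_congr _ (s • v) n fun l => by simp [res_val, hi, not_lt.mp h, hu (n, l) (not_lt.mp h)],
        S_smul, mul_pow, sq_abs]
      nlinarith [sq_nonneg (S u n)]
  · by_cases h : t.1 < N
    · simp only [Y.val_add, Y.val_smul, Pi.add_apply, Pi.smul_apply, res_val]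
      rw [Set.indicator_of_notMem (by simp [hi, h])]
      simp only [smul_zero, add_zero, one_mul, le_add_iff_nonneg_right]
      positivity
    · simp only [Y.val_add, Y.val_smul, Pi.add_apply, Pi.smul_apply, res_val]
      rw [Set.indicator_of_mem (by simpa [hi] using h), hu t (not_lt.mp h)]
      simp [mul_pow]

section Abstract

variable {E : Type} [NormedAddCommGroup E] [NormedSpace ℝ E]

lemma exists_near (φ : E →L[ℝ] ℝ) (δ : ℝ) (hδ : 0 < δ) : ∃ u, ‖u‖ ≤ 1 ∧ ‖φ‖ - δ ≤ φ u := by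
  obtain ⟨u, hu, h⟩ := φ.exists_lt_apply_of_lt_opNorm (r := ‖φ‖ - δ) (by linarith)
  rcases le_total 0 (φ u) with h0 | h0
  · exact ⟨u, hu.le, by rw [Real.norm_of_nonneg h0] at h; exact h.le⟩
  · refine ⟨-u, by simpa using hu.le, ?_⟩
    rw [Real.norm_of_nonpos h0] at h
    rw [map_neg]; exact h.le

lemma tail_abstract (φ : E →L[ℝ] ℝ) (ε : ℝ) (hε : 0 < ε) :
    ∃ δ > 0, ∃ s > 0, ∀ u v : E, ‖φ‖ - δ ≤ φ u → ‖u + s • v‖ ^ 2 ≤ 1 + s ^ 2 → φ v ≤ ε := by
  have ha := norm_nonneg φ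
  refine ⟨ε * (ε / (‖φ‖ + 1)) / 2, by positivity, ε / (‖φ‖ + 1), by positivity, ?_⟩
  set s := ε / (‖φ‖ + 1) with hs
  have hs0 : 0 < s := by positivity
  have hs1 : ‖φ‖ * s ≤ ε := by
    rw [hs, mul_div_assoc', div_le_iff₀ (by positivity)]; nlinarith
  intro u v h1 h2
  have h3 : ‖u + s • v‖ ≤ 1 + s ^ 2 / 2 := by
    apply le_of_sq_le_sq_aux _ (by positivity)
    nlinarith [sq_nonneg (s ^ 2)]
  have h4 : φ (u + s • v) ≤ ‖φ‖ * (1 + s ^ 2 / 2) :=
    (le_abs_self _).trans ((φ.le_opNorm _).trans (mul_le_mul_of_nonneg_left h3 ha))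
  rw [map_add, map_smul, smul_eq_mul] at h4
  have h5 : s * φ v ≤ s * ε := by nlinarith
  exact le_of_mul_le_mul_left h5 hs0

lemma opNorm_le_of_le (φ : E →L[ℝ] ℝ) (ε : ℝ) (hε : 0 ≤ ε) (h : ∀ v, ‖v‖ ≤ 1 → φ v ≤ ε) :
    ‖φ‖ ≤ ε := by
  refine ContinuousLinearMap.opNorm_le_of_unit_norm hε fun v hv => ?_
  rw [Real.norm_eq_abs, abs_le]
  have := h (-v) (by simp [hv])
  rw [map_neg] at this
  exact ⟨by linarith, h v hv.le⟩

end Abstract

lemma bessel_tail (a : I → ℝ) (C : ℝ) (h : ∀ G : Finset I, ∑ t ∈ G, a t ^ 2 ≤ C) (ε : ℝ)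
    (hε : 0 < ε) : ∃ F : Finset I, ∀ G : Finset I, Disjoint G F → ∑ t ∈ G, a t ^ 2 ≤ ε := by
  have hs : Summable fun t => a t ^ 2 := summable_of_sum_le (fun t => sq_nonneg _) h
  obtain ⟨F, hF⟩ := summable_iff_vanishing_norm.mp hs ε hε
  exact ⟨F, fun G hG => (le_abs_self _).trans (hF G hG).le⟩

lemma le_of_sq_le_mul {σ C : ℝ} (hC : 0 ≤ C) (h : σ ^ 2 ≤ C * σ) : σ ≤ C := by
  by_contra hc
  push Not at hc
  nlinarith

lemma bessel_x (x : X) (N : ℕ) (G : Finset I) (hG : ∀ t ∈ G, t.1 < N) :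
    ∑ t ∈ G, x (e t) ^ 2 ≤ (N * N + 1) * ‖x‖ ^ 2 := by
  set σ := ∑ t ∈ G, x (e t) ^ 2 with hσ
  set u : Y := ∑ t ∈ G, x (e t) • e t with hu
  have h1 : x u = σ := by simp [hu, hσ, sq]
  have h2 : H2 u = σ := by
    unfold H2
    rw [tsum_eq_sum (s := G) fun t ht => by simp [hu, val_sum_e, ht]]
    exact Finset.sum_congr rfl fun t ht => by simp [hu, val_sum_e, ht]
  have h3 := normsq_le_H2 u N fun t ht => by
    have : t ∉ G := fun h => by have := hG t h; omega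
    simp [hu, val_sum_e, this]
  have h4 : σ ^ 2 ≤ ‖x‖ ^ 2 * ‖u‖ ^ 2 := by
    rw [← mul_pow, ← h1, ← sq_abs]
    gcongr
    exact x.le_opNorm u
  apply le_of_sq_le_mul (by positivity)
  rw [h2] at h3
  nlinarith [mul_le_mul_of_nonneg_left h3 (sq_nonneg ‖x‖)]

lemma norm_sum_es_sq (a : I → ℝ) (G : Finset I) :
    ‖∑ t ∈ G, a t • es t‖ ^ 2 ≤ ∑ t ∈ G, a t ^ 2 := by
  have h0 : 0 ≤ ∑ t ∈ G, a t ^ 2 := by positivity
  have : ‖∑ t ∈ G, a t • es t‖ ≤ √(∑ t ∈ G, a t ^ 2) := by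
    refine ContinuousLinearMap.opNorm_le_bound _ (Real.sqrt_nonneg _) fun u => ?_
    apply le_of_sq_le_sq_aux _ (by positivity)
    rw [mul_pow, Real.sq_sqrt h0, Real.norm_eq_abs, sq_abs]
    simp only [sum_apply, smul_apply, es_apply,
      smul_eq_mul]
    exact (Finset.sum_mul_sq_le_sq_mul_sq G a u.val).trans
      (mul_le_mul_of_nonneg_left ((sum_le_H2 u G).trans (H2_le u)) h0)
  calc _ ≤ √(∑ t ∈ G, a t ^ 2) ^ 2 := by gcongr
    _ = _ := Real.sq_sqrt h0

lemma bessel_g (g : X →L[ℝ] ℝ) (G : Finset I) : ∑ t ∈ G, g (es t) ^ 2 ≤ ‖g‖ ^ 2 := by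
  set σ := ∑ t ∈ G, g (es t) ^ 2 with hσ
  set x : X := ∑ t ∈ G, g (es t) • es t with hx
  have h1 : g x = σ := by simp [hx, hσ, sq]
  have h3 : ‖x‖ ^ 2 ≤ σ := norm_sum_es_sq _ G
  have h4 : σ ^ 2 ≤ ‖g‖ ^ 2 * ‖x‖ ^ 2 := by
    rw [← mul_pow, ← h1, ← sq_abs]
    gcongr
    exact g.le_opNorm x
  apply le_of_sq_le_mul (by positivity)
  nlinarith [mul_le_mul_of_nonneg_left h3 (sq_nonneg ‖g‖)]

lemma exists_hi_small (x : X) (ε : ℝ) (hε : 0 < ε) : ∃ N, ‖x.comp (hiL N)‖ ≤ ε := by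
  obtain ⟨δ, hδ, s, hs, h⟩ := tail_abstract x ε hε
  obtain ⟨u, hu, hx⟩ := exists_near x δ hδ
  obtain ⟨N, hN⟩ := (u.fin.image Prod.fst).bddAbove
  refine ⟨N + 1, opNorm_le_of_le _ _ hε.le fun v hv => h u _ hx ?_⟩
  refine (normsq_lo_hi (N + 1) u v s fun t ht => ?_).trans ?_
  · by_contra hne
    have := hN ⟨t, hne, rfl⟩
    omega
  · have h1 : ‖u‖ ^ 2 ≤ 1 := by nlinarith [norm_nonneg u]
    have h2 : ‖v‖ ^ 2 ≤ 1 := by nlinarith [norm_nonneg v]
    nlinarith [sq_nonneg s]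

/-- the unit vectors of `Y` form a shrinking system -/
lemma tailY (x : X) (ε : ℝ) (hε : 0 < ε) :
    ∃ F : Finset I, ∀ v : Y, (∀ t ∈ F, v.val t = 0) → |x v| ≤ ε * ‖v‖ := by
  obtain ⟨N, hN⟩ := exists_hi_small x (ε / 2) (by positivity)
  obtain ⟨F, hF⟩ := bessel_tail (fun t => if t.1 < N then x (e t) else 0)
    ((N * N + 1) * ‖x‖ ^ 2) (fun G => by
      refine le_trans (le_of_eq ?_) (bessel_x x N (G.filter fun t => t.1 < N) (by simp))
      rw [Finset.sum_filter]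
      exact Finset.sum_congr rfl fun t _ => by split_ifs <;> simp) ((ε / 2) ^ 2) (by positivity)
  refine ⟨F, fun v hv => ?_⟩
  have h1 : |x (res (hi N) v)| ≤ ε / 2 * ‖v‖ :=
    ((x.comp (hiL N)).le_opNorm v).trans (mul_le_mul_of_nonneg_right hN (norm_nonneg _))
  have h2 : |x (res (lo N) v)| ≤ ε / 2 * ‖v‖ := by
    set G := v.fin.toFinset with hG
    have hd : Disjoint G F := Finset.disjoint_left.mpr fun t ht ht' => by
      have : v.val t ≠ 0 := by simpa [hG] using ht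
      exact this (hv t ht')
    have e1 : x (res (lo N) v) = ∑ t ∈ G, (if t.1 < N then x (e t) else 0) * v.val t := by
      rw [eq_sum_e (res (lo N) v) G fun t ht => by
        have : v.val t = 0 := by simpa [hG] using ht
        simp [res_val, Set.indicator_apply_eq_zero, this]]
      simp only [map_sum, map_smul, smul_eq_mul]
      refine Finset.sum_congr rfl fun t _ => ?_
      by_cases h : t.1 < N <;> simp [res_val, lo, h, mul_comm]
    apply le_of_sq_le_sq_aux _ (by positivity)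
    rw [sq_abs, e1, mul_pow]
    exact (Finset.sum_mul_sq_le_sq_mul_sq G _ v.val).trans
      (mul_le_mul (hF G hd) ((sum_le_H2 v G).trans (H2_le v)) (by positivity) (by positivity))
  rw [← lo_add_hi N v, map_add, lo_add_hi N v]
  linarith [abs_add_le (x (res (lo N) v)) (x (res (hi N) v))]

end Vale.Agent.P069
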