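import Vale.Agent.P069.Dual

open Filter Topology

namespace Vale.Agent.P069

/-- branch functionals -/
noncomputable def bf (n : ℕ) : List ℕ → X
  | [] => es (n, [])
  | a :: l => es (n, a :: l) + bf n l

lemma bf_apply (n : ℕ) (l : List ℕ) (u : Y) : bf n l u = ps u.val n l := by
  induction l with
  | nil => simp [bf, ps]
  | cons a l ih => simp [bf, ps, ih]

lemma norm_bf_le (n : ℕ) (l : List ℕ) (hl : l.length ≤ n) : ‖bf n l‖ ≤ 1 :=
  ContinuousLinearMap.opNorm_le_bound _ zero_le_one fun u => by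
    rw [bf_apply, one_mul]
    exact (le_S u n l hl).trans (co_le_norm u (.inl n))

lemma norm_e_le (t : I) : ‖e t‖ ≤ 3 / 2 :=
  le_of_sq_le_sq_aux (by linarith [norm_e_sq t]) (by norm_num)

lemma le_norm_of_apply (x : X) (t : I) (h : x (e t) = 1) : 2 / 3 ≤ ‖x‖ := by
  have h1 := x.le_opNorm (e t)
  rw [h, norm_one] at h1
  nlinarith [norm_e_le t, norm_nonneg x, norm_nonneg (e t)]

lemma le_norm_es (t : I) : 2 / 3 ≤ ‖es t‖ := le_norm_of_apply _ t (by simp)

lemma le_norm_bf (n : ℕ) (l : List ℕ) : 2 / 3 ≤ ‖bf n l‖ := by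
  refine le_norm_of_apply _ (n, []) ?_
  rw [bf_apply]
  induction l with
  | nil => simp [ps]
  | cons a l ih => simp only [ps, ih]; simp

lemma tendsto_g (g : X →L[ℝ] ℝ) (n : ℕ) (l : List ℕ) :
    Tendsto (fun a : ℕ => g (es (n, a :: l))) atTop (𝓝 0) := by
  have hs : Summable fun t : I => g (es t) ^ 2 :=
    summable_of_sum_le (fun t => sq_nonneg _) (bessel_g g)
  have hinj : Function.Injective fun a : ℕ => ((n, a :: l) : I) := fun a b h => by simpa using h
  have h1 := (hs.comp_injective hinj).tendsto_atTop_zero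
  have h2 := h1.sqrt
  simp only [Function.comp, Real.sqrt_sq_eq_abs, Real.sqrt_zero] at h2
  exact tendsto_zero_iff_abs_tendsto_zero _ |>.mpr h2

lemma exists_near_cof_aux {E : Type} [NormedAddCommGroup E] [NormedSpace ℝ E] (z : ℕ → E)
    (hz : ∀ g : E →L[ℝ] ℝ, Tendsto (fun a => g (z a)) atTop (𝓝 0))
    (F : Submodule ℝ E) (hF : IsCof F) (η : ℝ) (hη : 0 < η) :
    ∃ a : ℕ, ∃ y ∈ F, ‖z a - y‖ < η := by
  obtain ⟨hc, hfd⟩ := hF
  have : IsClosed (F : Set E) := hc
  let b := Module.finBasis ℝ (E ⧸ F)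
  let π : E →L[ℝ] E ⧸ F := F.mkQL
  have h1 : Tendsto (fun a : ℕ => b.equivFunL (π (z a))) atTop (𝓝 0) := by
    rw [tendsto_pi_nhds]
    intro i
    let p : (Fin (Module.finrank ℝ (E ⧸ F)) → ℝ) →L[ℝ] ℝ := ContinuousLinearMap.proj i
    exact hz (p.comp (b.equivFunL.toContinuousLinearMap.comp π))
  have h2 : Tendsto (fun a : ℕ => π (z a)) atTop (𝓝 0) := by
    have := (b.equivFunL.symm.continuous.tendsto 0).comp h1
    simpa [Function.comp_def] using this
  have h3 : Tendsto (fun a : ℕ => ‖π (z a)‖) atTop (𝓝 0) :=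
    tendsto_zero_iff_norm_tendsto_zero.mp h2
  obtain ⟨a, ha⟩ := (h3.eventually (gt_mem_nhds (half_pos hη))).exists
  obtain ⟨m, hm, hm'⟩ := Submodule.Quotient.norm_mk_lt (π (z a)) (half_pos hη)
  refine ⟨a, z a - m, ?_, by rw [sub_sub_cancel]; linarith⟩
  exact (Submodule.Quotient.eq F).mp hm.symm

lemma exists_near_cof (F : Submodule ℝ X) (hF : IsCof F) (n : ℕ) (l : List ℕ) (η : ℝ)
    (hη : 0 < η) : ∃ a : ℕ, ∃ y ∈ F, ‖es (n, a :: l) - y‖ < η :=
  exists_near_cof_aux (fun a => es (n, a :: l)) (fun g => tendsto_g g n l) F hF η hη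

theorem not_auc : ¬ AUCRenormable X := by
  rintro ⟨N, ⟨hadd, hsmul, c, C, hc, hN⟩, hA⟩
  have hN0 : ∀ x, 0 ≤ N x := fun x => le_trans (by positivity) (hN x).1
  have hC : 0 < C := by
    have h1 := hN (es (0, []))
    have h2 := le_norm_es (0, [])
    by_contra hcon
    push Not at hcon
    nlinarith [h1.1, h1.2]
  have ht₀ : 0 < c / (3 * C) := by positivity
  obtain ⟨δ, hδ0, hδ⟩ := EReal.lt_iff_exists_real_btwn.mp (hA _ ht₀)
  have hδ0' : 0 < δ := by exact_mod_cast hδ0
  have step : ∀ n l, l.length ≤ n → ∃ a, N (bf n l) + c * δ / 3 ≤ N (bf n (a :: l)) := by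
    intro n l hl
    set r := N (bf n l) with hr
    have hr1 : c * (2 / 3) ≤ r :=
      (mul_le_mul_of_nonneg_left (le_norm_bf n l) hc.le).trans (hN _).1
    have hr2 : r ≤ C := (hN _).2.trans (mul_le_of_le_one_right hC.le (norm_bf_le n l hl))
    have hr0 : 0 < r := by linarith [mul_pos hc (by norm_num : (0 : ℝ) < 2 / 3)]
    have hx : N (r⁻¹ • bf n l) = 1 := by
      rw [hsmul, abs_of_pos (inv_pos.mpr hr0), inv_mul_cancel₀ hr0.ne']
    have h1 := lt_of_lt_of_le hδ (iInf₂_le (r⁻¹ • bf n l) hx)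
    obtain ⟨F, h1⟩ := lt_iSup_iff.mp h1
    obtain ⟨hF, h1⟩ := lt_iSup_iff.mp h1
    obtain ⟨a, y, hy, hay⟩ := exists_near_cof F hF n l (min (1 / 3) (c * δ / (3 * C)))
      (lt_min (by norm_num) (by positivity))
    refine ⟨a, ?_⟩
    have hy1 : 1 / 3 ≤ ‖y‖ := by
      have := norm_sub_norm_le (es (n, a :: l)) y
      linarith [le_norm_es (n, a :: l), min_le_left (1 / 3) (c * δ / (3 * C))]
    set s := N y with hs
    have hs1 : c * (1 / 3) ≤ s := (mul_le_mul_of_nonneg_left hy1 hc.le).trans (hN _).1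
    have hs0 : 0 < s := by linarith [mul_pos hc (by norm_num : (0 : ℝ) < 1 / 3)]
    have hy2 : N (s⁻¹ • y) = 1 := by
      rw [hsmul, abs_of_pos (inv_pos.mpr hs0), inv_mul_cancel₀ hs0.ne']
    have h2 := lt_of_lt_of_le h1 ((iInf₂_le (s⁻¹ • y) (F.smul_mem _ hy)).trans (iInf_le _ hy2))
    rw [EReal.coe_lt_coe_iff] at h2
    set lam := c / (3 * C) * r / s with hlam
    have hl0 : 0 < lam := by positivity
    have hl1 : lam ≤ 1 := by
      rw [hlam, div_le_one hs0, div_mul_eq_mul_div, div_le_iff₀ (by positivity)]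
      nlinarith [mul_le_mul_of_nonneg_left hr2 hc.le, mul_le_mul_of_nonneg_right hs1 hC.le]
    have e1 : r • (r⁻¹ • bf n l + (c / (3 * C)) • s⁻¹ • y) =
        (1 - lam) • bf n l + lam • (bf n l + y) := by
      rw [smul_add, smul_smul, mul_inv_cancel₀ hr0.ne', smul_smul, smul_smul, smul_add,
        ← add_assoc, ← add_smul]
      congr 2
      · ring
      · rw [hlam]; field_simp
    have h3 : r * (1 + δ) ≤ (1 - lam) * r + lam * N (bf n l + y) := by
      have a1 := hsmul r (r⁻¹ • bf n l + (c / (3 * C)) • s⁻¹ • y)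
      have a2 := hadd ((1 - lam) • bf n l) (lam • (bf n l + y))
      rw [hsmul, hsmul, abs_of_nonneg (by linarith), abs_of_pos hl0, ← e1, a1,
        abs_of_pos hr0] at a2
      nlinarith
    have h4 : r + r * δ ≤ N (bf n l + y) := by
      by_contra hcon
      push Not at hcon
      nlinarith [mul_pos hr0 hδ0', mul_lt_mul_of_pos_left hcon hl0]
    have h5 : N (bf n l + y) ≤ N (bf n (a :: l)) + C * (c * δ / (3 * C)) := by
      have a1 := hadd (bf n (a :: l)) (-(es (n, a :: l) - y))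
      have e2 : bf n (a :: l) + -(es (n, a :: l) - y) = bf n l + y := by
        simp only [bf]; abel
      rw [e2] at a1
      have a2 := (hN (-(es (n, a :: l) - y))).2
      rw [norm_neg] at a2
      have a3 : ‖es (n, a :: l) - y‖ ≤ c * δ / (3 * C) := hay.le.trans (min_le_right _ _)
      nlinarith [mul_le_mul_of_nonneg_left a3 hC.le]
    have e3 : C * (c * δ / (3 * C)) = c * δ / 3 := by field_simp
    nlinarith [mul_le_mul_of_nonneg_right hr1 hδ0'.le]
  have iter : ∀ n k, k ≤ n → ∃ l : List ℕ, l.length = k ∧ k * (c * δ / 3) ≤ N (bf n l) := by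
    intro n k
    induction k with
    | zero => intro _; exact ⟨[], rfl, by simpa using hN0 _⟩
    | succ k ih =>
      intro hk
      obtain ⟨l, hl, h⟩ := ih (by omega)
      obtain ⟨a, ha⟩ := step n l (by omega)
      exact ⟨a :: l, by simp [hl], by push_cast; linarith⟩
  obtain ⟨n, hn⟩ := exists_nat_gt (C / (c * δ / 3))
  obtain ⟨l, hl, h⟩ := iter n n le_rfl
  have h1 : N (bf n l) ≤ C := (hN _).2.trans (mul_le_of_le_one_right hC.le (norm_bf_le n l hl.le))
  rw [div_lt_iff₀ (by positivity)] at hn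
  linarith

end Vale.Agent.P069
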