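import Vale.Agent.P069.Refl
import Vale.Agent.P069.Amuc
import Vale.Agent.P069.NotAuc

namespace Vale.Agent.P069

lemma isEquivNorm_norm {E : Type} [NormedAddCommGroup E] [NormedSpace ℝ E] :
    IsEquivNorm (fun x : E => ‖x‖) :=
  ⟨norm_add_le, fun a x => by simp [norm_smul], 1, 1, one_pos, fun x => by simp⟩

theorem isAMUC_X : IsAMUC (fun x : X => ‖x‖) := fun t ht =>
  lt_of_lt_of_le (by
    have : 0 < min t 1 := lt_min ht one_pos
    exact_mod_cast (by positivity : 0 < min t 1 ^ 2 / 50)) (amuc_bound t ht)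

theorem amuc_X : AMUCRenormable X := ⟨_, isEquivNorm_norm, isAMUC_X⟩

theorem infinite_dim_X : ¬ FiniteDimensional ℝ X := by
  intro h
  refine not_auc ⟨_, isEquivNorm_norm, fun t _ => ?_⟩
  unfold aucModulus
  refine lt_of_lt_of_le EReal.zero_lt_top (le_iInf₂ fun x _ => ?_)
  refine le_iSup₂_of_le ⊥ ⟨by simp, inferInstance⟩ ?_
  refine le_iInf₂ fun y hy => le_iInf fun hy1 => ?_
  rw [Submodule.mem_bot] at hy
  simp [hy] at hy1

end Vale.Agent.P069
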