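import Vale.Agent.P069.Dual

namespace Vale.Agent.P069

lemma norm_comp_le (x : X) (T : Y →L[ℝ] Y) (h : ∀ u, ‖T u‖ ≤ ‖u‖) : ‖x.comp T‖ ≤ ‖x‖ :=
  ContinuousLinearMap.opNorm_le_bound _ (norm_nonneg _) fun u =>
    (x.le_opNorm _).trans (mul_le_mul_of_nonneg_left (h u) (norm_nonneg _))

lemma lo_add_hi_X (N : ℕ) (x : X) : x.comp (loL N) + x.comp (hiL N) = x := by
  ext u
  simp only [add_apply, ContinuousLinearMap.comp_apply, loL_apply, hiL_apply]
  rw [← map_add, lo_add_hi]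

lemma exists_hi_small_dual (g : X →L[ℝ] ℝ) (ε : ℝ) (hε : 0 < ε) :
    ∃ N, ∀ x : X, ‖x‖ ≤ 1 → g (x.comp (hiL N)) ≤ ε := by
  obtain ⟨δ, hδ, s, hs, h⟩ := tail_abstract g ε hε
  obtain ⟨x₀, hx₀, hg⟩ := exists_near g (δ / 2) (by positivity)
  obtain ⟨N, hN⟩ := exists_hi_small x₀ (δ / (2 * (‖g‖ + 1))) (by positivity)
  refine ⟨N, fun x hx => h (x₀.comp (loL N)) _ ?_ ?_⟩
  · have h1 : g x₀ = g (x₀.comp (loL N)) + g (x₀.comp (hiL N)) := by
      rw [← map_add, lo_add_hi_X]
    have h2 : g (x₀.comp (hiL N)) ≤ ‖g‖ * (δ / (2 * (‖g‖ + 1))) :=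
      (le_abs_self _).trans ((g.le_opNorm _).trans (mul_le_mul_of_nonneg_left hN (norm_nonneg _)))
    have h3 : ‖g‖ * (δ / (2 * (‖g‖ + 1))) ≤ δ / 2 := by
      rw [mul_div_assoc', div_le_div_iff₀ (by positivity) (by positivity)]
      nlinarith [norm_nonneg g]
    linarith
  · have : ‖x₀.comp (loL N) + s • x.comp (hiL N)‖ ≤ √(1 + s ^ 2) := by
      refine ContinuousLinearMap.opNorm_le_bound _ (Real.sqrt_nonneg _) fun u => ?_
      apply le_of_sq_le_sq_aux _ (by positivity)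
      rw [mul_pow, Real.sq_sqrt (by positivity)]
      simp only [add_apply, smul_apply, ContinuousLinearMap.comp_apply, loL_apply, hiL_apply,
        smul_eq_mul, Real.norm_eq_abs]
      have a1 : |x₀ (res (lo N) u)| ≤ ‖res (lo N) u‖ :=
        (x₀.le_opNorm _).trans (mul_le_of_le_one_left (norm_nonneg _) hx₀)
      have a2 : |x (res (hi N) u)| ≤ ‖res (hi N) u‖ :=
        (x.le_opNorm _).trans (mul_le_of_le_one_left (norm_nonneg _) hx)
      have a3 : |x₀ (res (lo N) u) + s * x (res (hi N) u)| ≤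
          ‖res (lo N) u‖ + s * ‖res (hi N) u‖ := by
        refine (abs_add_le _ _).trans (add_le_add a1 ?_)
        rw [abs_mul, abs_of_pos hs]
        exact mul_le_mul_of_nonneg_left a2 hs.le
      have a4 := lo_hi_sq N u
      calc _ ≤ (‖res (lo N) u‖ + s * ‖res (hi N) u‖) ^ 2 := by gcongr
        _ ≤ (1 + s ^ 2) * (‖res (lo N) u‖ ^ 2 + ‖res (hi N) u‖ ^ 2) := by
          nlinarith [sq_nonneg (s * ‖res (lo N) u‖ - ‖res (hi N) u‖)]
        _ ≤ _ := by gcongr
    calc _ ≤ √(1 + s ^ 2) ^ 2 := by gcongr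
      _ = _ := Real.sq_sqrt (by positivity)

noncomputable def Pj (G : Finset I) (x : X) : X := ∑ t ∈ G, x (e t) • es t

lemma Pj_apply (G : Finset I) (x : X) (u : Y) : Pj G x u = x (res G u) := by
  rw [eq_sum_e (res G u) G fun t ht => by simp [res_val, ht]]
  simp only [Pj, sum_apply, smul_apply, es_apply, map_sum, map_smul, smul_eq_mul]
  exact Finset.sum_congr rfl fun t ht => by simp [res_val, ht, mul_comm]

lemma H2_res_le (A : Set I) (u : Y) : H2 (res A u) ≤ H2 u :=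
  (summable_sq _).tsum_le_tsum (fun t => by
    by_cases h : t ∈ A <;> simp [res_val, h, sq_nonneg]) (summable_sq _)

lemma norm_res_le (N : ℕ) (A : Set I) (hA : ∀ t ∈ A, t.1 < N) (u : Y) :
    ‖res A u‖ ≤ (N + 1) * ‖u‖ := by
  apply le_of_sq_le_sq_aux _ (by positivity)
  have h1 := normsq_le_H2 (res A u) N fun t ht => by
    have : t ∉ A := fun h => by have := hA t h; omega
    simp [res_val, this]
  have h2 := (H2_res_le A u).trans (H2_le u)
  have h3 : (N * N + 1 : ℝ) ≤ (N + 1) ^ 2 := by nlinarith [Nat.cast_nonneg (α := ℝ) N]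
  rw [mul_pow]
  exact h1.trans (mul_le_mul h3 h2 (H2_nonneg _) (by positivity))

/-- approximation of the low part by finite rank pieces -/
lemma lo_approx (x : X) (N : ℕ) (F : Finset I) (θ : ℝ) (hθ : 0 < θ) :
    ∃ G : Finset I, Disjoint G F ∧ (∀ t ∈ G, t.1 < N) ∧
      ‖x.comp (loL N) - Pj (F.filter fun t => t.1 < N) x - Pj G x‖ ≤ θ := by
  classical
  obtain ⟨F', hF'⟩ := tailY x (θ / (N + 1)) (by positivity)
  refine ⟨(F' \ F).filter fun t => t.1 < N, ?_, fun t ht => (Finset.mem_filter.mp ht).2, ?_⟩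
  · exact Finset.disjoint_left.mpr fun t ht ht' => by
      simp only [Finset.mem_filter, Finset.mem_sdiff] at ht
      exact ht.1.2 ht'
  · refine ContinuousLinearMap.opNorm_le_bound _ hθ.le fun u => ?_
    let A : Set I := {t | t.1 < N ∧ t ∉ F ∧ t ∉ F'}
    have e1 : (x.comp (loL N) - Pj (F.filter fun t => t.1 < N) x -
        Pj ((F' \ F).filter fun t => t.1 < N) x) u = x (res A u) := by
      simp only [sub_apply, ContinuousLinearMap.comp_apply, loL_apply, Pj_apply]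
      rw [← map_sub, ← map_sub]
      congr 1
      refine Y.ext fun t => ?_
      by_cases h1 : t.1 < N <;> by_cases h2 : t ∈ F <;> by_cases h3 : t ∈ F' <;>
        simp [res_val, lo, A, h1, h2, h3]
    rw [e1]
    refine (hF' (res A u) fun t ht => by simp [res_val, A, ht]).trans ?_
    have := norm_res_le N A (fun t ht => ht.1) u
    calc θ / (N + 1) * ‖res A u‖ ≤ θ / (N + 1) * ((N + 1) * ‖u‖) := by gcongr
      _ = θ * ‖u‖ := by field_simp

lemma dense_j (g : X →L[ℝ] ℝ) (ε : ℝ) (hε : 0 < ε) :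
    ∃ u : Y, ‖g - NormedSpace.inclusionInDoubleDual ℝ Y u‖ ≤ ε := by
  classical
  obtain ⟨N, hN⟩ := exists_hi_small_dual g (ε / 3) (by positivity)
  obtain ⟨F, hF⟩ := bessel_tail (fun t => g (es t)) _ (bessel_g g) ((ε / 3 / (N + 1)) ^ 2)
    (by positivity)
  refine ⟨∑ t ∈ F.filter (fun t => t.1 < N), g (es t) • e t,
    opNorm_le_of_le _ _ hε.le fun x hx => ?_⟩
  obtain ⟨G, hGF, hG, hD⟩ := lo_approx x N F (ε / 3 / (‖g‖ + 1)) (by positivity)
  have e0 : NormedSpace.inclusionInDoubleDual ℝ Y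
      (∑ t ∈ F.filter (fun t => t.1 < N), g (es t) • e t) x =
      g (Pj (F.filter fun t => t.1 < N) x) := by
    simp [NormedSpace.dual_def, Pj, mul_comm]
  have e1 : g x = g (x.comp (loL N)) + g (x.comp (hiL N)) := by rw [← map_add, lo_add_hi_X]
  have h1 := hN x hx
  have h2 : g (x.comp (loL N) - Pj (F.filter fun t => t.1 < N) x - Pj G x) ≤ ε / 3 := by
    refine (le_abs_self _).trans ((g.le_opNorm _).trans
      ((mul_le_mul_of_nonneg_left hD (norm_nonneg _)).trans ?_))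
    rw [mul_div_assoc', div_le_iff₀ (by positivity)]
    nlinarith [norm_nonneg g]
  have h3 : g (Pj G x) ≤ ε / 3 := by
    apply le_of_sq_le_sq_aux _ (by positivity)
    have : g (Pj G x) = ∑ t ∈ G, x (e t) * g (es t) := by simp [Pj]
    rw [this]
    refine (Finset.sum_mul_sq_le_sq_mul_sq G _ _).trans ?_
    have b1 := bessel_x x N G hG
    have b2 : ‖x‖ ^ 2 ≤ 1 := by nlinarith [norm_nonneg x]
    have b3 : (N * N + 1 : ℝ) * ‖x‖ ^ 2 ≤ (N + 1) ^ 2 := by
      nlinarith [Nat.cast_nonneg (α := ℝ) N]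
    calc _ ≤ ((N : ℝ) + 1) ^ 2 * (ε / 3 / (N + 1)) ^ 2 :=
          mul_le_mul (b1.trans b3) (hF G hGF) (by positivity) (by positivity)
      _ = _ := by field_simp
  rw [map_sub, map_sub] at h2
  rw [sub_apply, e0]
  linarith

theorem reflexive_X : IsReflexiveSpace X := by
  intro Φ
  refine ⟨Φ.comp (NormedSpace.inclusionInDoubleDual ℝ Y), ?_⟩
  ext g
  set x : X := Φ.comp (NormedSpace.inclusionInDoubleDual ℝ Y) with hx
  rw [NormedSpace.dual_def]
  refine eq_of_forall_dist_le fun ε hε => ?_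
  obtain ⟨u, hu⟩ := dense_j g (ε / (‖x‖ + ‖Φ‖ + 1)) (by positivity)
  set d := g - NormedSpace.inclusionInDoubleDual ℝ Y u with hd
  have e1 : g x - Φ g = d x - Φ d := by
    simp [hd, hx, NormedSpace.dual_def]
  rw [Real.dist_eq, e1]
  have h1 : |d x| ≤ ‖d‖ * ‖x‖ := d.le_opNorm x
  have h2 : |Φ d| ≤ ‖Φ‖ * ‖d‖ := Φ.le_opNorm d
  have h3 : ‖d‖ * (‖x‖ + ‖Φ‖ + 1) ≤ ε := by
    rwa [le_div_iff₀ (by positivity)] at hu
  have := abs_sub (d x) (Φ d)
  nlinarith [norm_nonneg d]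

theorem separable_X : TopologicalSpace.SeparableSpace X := by
  rw [← TopologicalSpace.isSeparable_univ_iff]
  have h1 : TopologicalSpace.IsSeparable (Submodule.span ℝ (Set.range es) : Set X) :=
    (Set.countable_range es).isSeparable.span
  refine h1.closure.mono fun x _ => Metric.mem_closure_iff.mpr fun ε hε => ?_
  obtain ⟨N, hN⟩ := exists_hi_small x (ε / 3) (by positivity)
  obtain ⟨G, -, -, hD⟩ := lo_approx x N ∅ (ε / 3) (by positivity)
  refine ⟨Pj G x, Submodule.sum_mem _ fun t _ =>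
    Submodule.smul_mem _ _ (Submodule.subset_span ⟨t, rfl⟩), ?_⟩
  have e1 : x - Pj G x = (x.comp (loL N) - Pj ((∅ : Finset I).filter fun t => t.1 < N) x - Pj G x)
      + x.comp (hiL N) := by
    conv_lhs => rw [← lo_add_hi_X N x]
    simp only [Finset.filter_empty, Pj, Finset.sum_empty, sub_zero, lo_add_hi_X]
    conv_lhs => rw [← lo_add_hi_X N x]
    simp only [lo_add_hi_X]
    have := lo_add_hi_X N x
    rw [sub_add_eq_add_sub, this]
  rw [dist_eq_norm, e1]
  linarith [norm_add_le (x.comp (loL N) - Pj ((∅ : Finset I).filter fun t => t.1 < N) x - Pj G x)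
    (x.comp (hiL N))]

end Vale.Agent.P069
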