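import Vale.Agent.P069.Defs

open scoped ENNReal

namespace Vale.Agent.P069

abbrev I : Type := ℕ × List ℕ

/-- partial sums along a branch -/
def ps (u : I → ℝ) (n : ℕ) : List ℕ → ℝ
  | [] => u (n, [])
  | a :: l => u (n, a :: l) + ps u n l

/-- sums of squares along a branch -/
def qs (u : I → ℝ) (n : ℕ) : List ℕ → ℝ
  | [] => u (n, []) ^ 2
  | a :: l => u (n, a :: l) ^ 2 + qs u n l

def br (n : ℕ) : List ℕ → Finset I
  | [] => {(n, [])}
  | a :: l => insert (n, a :: l) (br n l)

lemma br_length (n : ℕ) (l : List ℕ) : ∀ t ∈ br n l, t.2.length ≤ l.length := by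
  induction l with
  | nil => intro t ht; simp [br] at ht; simp [ht]
  | cons a l ih =>
    intro t ht
    simp only [br, Finset.mem_insert] at ht
    rcases ht with rfl | ht
    · simp
    · have := ih t ht; simp; omega

lemma qs_eq (u : I → ℝ) (n : ℕ) (l : List ℕ) : qs u n l = ∑ t ∈ br n l, u t ^ 2 := by
  induction l with
  | nil => simp [qs, br]
  | cons a l ih =>
    have : (n, a :: l) ∉ br n l := fun h => by have := br_length n l _ h; simp at this
    simp [qs, br, Finset.sum_insert this, ih]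

lemma qs_nonneg (u : I → ℝ) (n : ℕ) (l : List ℕ) : 0 ≤ qs u n l := by
  rw [qs_eq]; positivity

lemma ps_sq_le (u : I → ℝ) (n : ℕ) (l : List ℕ) :
    ps u n l ^ 2 ≤ (l.length + 1) * qs u n l := by
  induction l with
  | nil => simp [ps, qs]
  | cons a l ih =>
    simp only [ps, qs, List.length_cons]
    push_cast
    have hk : (0 : ℝ) < l.length + 1 := by positivity
    have h1 : (l.length + 1 : ℝ) * (2 * u (n, a :: l) * ps u n l) ≤
        (l.length + 1) * ((l.length + 1) * u (n, a :: l) ^ 2 + qs u n l) := by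
      nlinarith [sq_nonneg ((l.length + 1 : ℝ) * u (n, a :: l) - ps u n l)]
    have h2 := le_of_mul_le_mul_left h1 hk
    nlinarith

lemma ps_add (u v : I → ℝ) (n : ℕ) (l : List ℕ) : ps (u + v) n l = ps u n l + ps v n l := by
  induction l with
  | nil => simp [ps]
  | cons a l ih => simp only [ps, ih, Pi.add_apply]; ring

lemma ps_smul (c : ℝ) (u : I → ℝ) (n : ℕ) (l : List ℕ) : ps (c • u) n l = c * ps u n l := by
  induction l with
  | nil => simp [ps]
  | cons a l ih => simp only [ps, ih, Pi.smul_apply, smul_eq_mul]; ring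

lemma ps_congr (u v : I → ℝ) (n : ℕ) (h : ∀ l, u (n, l) = v (n, l)) (l : List ℕ) :
    ps u n l = ps v n l := by
  induction l with
  | nil => simp [ps, h]
  | cons a l ih => simp only [ps, ih, h]

lemma ps_zero (n : ℕ) (l : List ℕ) : ps 0 n l = 0 := by
  induction l with
  | nil => simp [ps]
  | cons a l ih => simp [ps, ih]

def Ysub : Submodule ℝ (I → ℝ) where
  carrier := {u | (Function.support u).Finite}
  add_mem' := fun {u v} hu hv => (hu.union hv).subset (Function.support_add u v)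
  zero_mem' := by simp
  smul_mem' := fun c u hu => hu.subset (Function.support_const_smul_subset c u)

/-- finitely supported functions on the forest -/
def Y : Type := Ysub

instance : AddCommGroup Y := inferInstanceAs (AddCommGroup Ysub)
instance : Module ℝ Y := inferInstanceAs (Module ℝ Ysub)

def Y.val (u : Y) : I → ℝ := Subtype.val u
def Y.mk (f : I → ℝ) (h : (Function.support f).Finite) : Y := Subtype.mk f h

lemma Y.fin (u : Y) : (Function.support u.val).Finite := Subtype.property u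
@[simp] lemma Y.val_mk (f : I → ℝ) (h) : (Y.mk f h).val = f := rfl
@[simp] lemma Y.val_add (u v : Y) : (u + v).val = u.val + v.val := rfl
@[simp] lemma Y.val_sub (u v : Y) : (u - v).val = u.val - v.val := rfl
@[simp] lemma Y.val_neg (u : Y) : (-u).val = -u.val := rfl
@[simp] lemma Y.val_smul (c : ℝ) (u : Y) : (c • u).val = c • u.val := rfl
@[simp] lemma Y.val_zero : (0 : Y).val = 0 := rfl
lemma Y.ext {u v : Y} (h : ∀ t, u.val t = v.val t) : u = v := Subtype.ext (funext h)

lemma Y.val_sum {ι : Type} (s : Finset ι) (f : ι → Y) :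
    (∑ i ∈ s, f i).val = ∑ i ∈ s, (f i).val := by
  classical
  induction s using Finset.induction_on with
  | empty => simp
  | insert a s ha ih => simp [Finset.sum_insert ha, ih]

noncomputable def H2 (u : Y) : ℝ := ∑' t, u.val t ^ 2

lemma summable_sq (u : Y) : Summable fun t => u.val t ^ 2 := by
  refine summable_of_ne_finset_zero (s := u.fin.toFinset) fun t ht => ?_
  have : u.val t = 0 := by simpa using ht
  simp [this]

lemma H2_nonneg (u : Y) : 0 ≤ H2 u := tsum_nonneg fun _ => sq_nonneg _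

lemma sum_le_H2 (u : Y) (s : Finset I) : ∑ t ∈ s, u.val t ^ 2 ≤ H2 u :=
  (summable_sq u).sum_le_tsum s fun _ _ => sq_nonneg _

lemma ps_sq_le_H2 (u : Y) (n : ℕ) (l : List ℕ) (hl : l.length ≤ n) :
    ps u.val n l ^ 2 ≤ (n + 1) * H2 u := by
  have h1 := ps_sq_le u.val n l
  have h2 : qs u.val n l ≤ H2 u := by rw [qs_eq]; exact sum_le_H2 u _
  have h3 : (l.length + 1 : ℝ) ≤ n + 1 := by exact_mod_cast Nat.succ_le_succ hl
  exact h1.trans (mul_le_mul h3 h2 (qs_nonneg _ _ _) (by positivity))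

noncomputable def S (u : Y) (n : ℕ) : ℝ := ⨆ l : {l : List ℕ // l.length ≤ n}, |ps u.val n l|

instance (n : ℕ) : Nonempty {l : List ℕ // l.length ≤ n} := ⟨⟨[], by simp⟩⟩

lemma S_bdd (u : Y) (n : ℕ) :
    BddAbove (Set.range fun l : {l : List ℕ // l.length ≤ n} => |ps u.val n l|) := by
  refine ⟨√((n + 1) * H2 u), ?_⟩
  rintro _ ⟨l, rfl⟩
  exact Real.abs_le_sqrt (ps_sq_le_H2 u n l l.2)

lemma le_S (u : Y) (n : ℕ) (l : List ℕ) (hl : l.length ≤ n) : |ps u.val n l| ≤ S u n :=
  le_ciSup (S_bdd u n) ⟨l, hl⟩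

lemma S_le (u : Y) (n : ℕ) (c : ℝ) (h : ∀ l : List ℕ, l.length ≤ n → |ps u.val n l| ≤ c) :
    S u n ≤ c := ciSup_le fun l => h l l.2

lemma S_nonneg (u : Y) (n : ℕ) : 0 ≤ S u n := (abs_nonneg _).trans (le_S u n [] (by simp))

lemma S_sq_le (u : Y) (n : ℕ) (c : ℝ) (h : ∀ l : List ℕ, l.length ≤ n → ps u.val n l ^ 2 ≤ c) :
    S u n ^ 2 ≤ c := by
  have hc : 0 ≤ c := (sq_nonneg _).trans (h [] (by simp))
  have : S u n ≤ √c := S_le u n _ fun l hl => Real.abs_le_sqrt (h l hl)
  calc S u n ^ 2 ≤ √c ^ 2 := by gcongr; exact S_nonneg u n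
    _ = c := Real.sq_sqrt hc

lemma ps_sq_le_S (u : Y) (n : ℕ) (l : List ℕ) (hl : l.length ≤ n) :
    ps u.val n l ^ 2 ≤ S u n ^ 2 := by
  rw [← sq_abs]; gcongr; exact le_S u n l hl

lemma S_congr (u v : Y) (n : ℕ) (h : ∀ l, u.val (n, l) = v.val (n, l)) : S u n = S v n := by
  unfold S; congr 1; ext l; rw [ps_congr _ _ n h]

lemma S_zero (n : ℕ) : S 0 n = 0 :=
  le_antisymm (S_le _ _ _ fun l _ => by simp [ps_zero]) (S_nonneg _ _)

lemma S_eq_zero (u : Y) (n : ℕ) (h : ∀ l, u.val (n, l) = 0) : S u n = 0 := by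
  rw [S_congr u 0 n (by simpa using h), S_zero]

lemma S_add (u v : Y) (n : ℕ) : S (u + v) n ≤ S u n + S v n :=
  S_le _ _ _ fun l hl => by
    rw [Y.val_add, ps_add]
    exact (abs_add_le _ _).trans (add_le_add (le_S u n l hl) (le_S v n l hl))

lemma S_smul (c : ℝ) (u : Y) (n : ℕ) : S (c • u) n = |c| * S u n := by
  unfold S
  rw [Real.mul_iSup_of_nonneg (abs_nonneg c)]
  congr 1; ext l; rw [Y.val_smul, ps_smul, abs_mul]

/-- the coordinates of the norm -/
noncomputable def co (u : Y) : ℕ ⊕ I → ℝ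
  | .inl n => S u n
  | .inr t => |u.val t|

lemma co_nonneg (u : Y) (j : ℕ ⊕ I) : 0 ≤ co u j := by
  rcases j with n | t
  · exact S_nonneg u n
  · exact abs_nonneg _

lemma summable_co (u : Y) : Summable fun j => co u j ^ 2 := by
  classical
  refine summable_of_ne_finset_zero
    (s := (u.fin.toFinset.image fun t => Sum.inl t.1) ∪ (u.fin.toFinset.image Sum.inr)) ?_
  rintro (n | t) h
  · have : S u n = 0 := S_eq_zero u n fun l => by
      by_contra hne
      exact h (Finset.mem_union_left _ (Finset.mem_image.mpr ⟨(n, l), by simpa using hne, rfl⟩))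
    simp [co, this]
  · have : u.val t = 0 := by
      by_contra hne
      exact h (Finset.mem_union_right _ (Finset.mem_image.mpr ⟨t, by simpa using hne, rfl⟩))
    simp [co, this]

noncomputable def vec (u : Y) : lp (fun _ : ℕ ⊕ I => ℝ) 2 :=
  ⟨co u, memℓp_gen (by simpa using summable_co u)⟩

@[simp] lemma vec_apply (u : Y) (j) : vec u j = co u j := rfl

noncomputable instance : Norm Y := ⟨fun u => ‖vec u‖⟩

lemma hasSum_co (u : Y) : HasSum (fun j => co u j ^ 2) (‖u‖ ^ 2) := by
  have := lp.hasSum_norm (p := 2) (by norm_num) (vec u)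
  change HasSum _ (‖vec u‖ ^ 2)
  simpa using this

lemma co_le_norm (u : Y) (j) : co u j ≤ ‖u‖ := by
  have := lp.norm_apply_le_norm (p := 2) (by norm_num) (vec u) j
  exact (le_abs_self _).trans this

lemma Ycore : NormedSpace.Core ℝ Y where
  norm_nonneg u := norm_nonneg (vec u)
  norm_smul c u := by
    have : vec (c • u) = |c| • vec u := by
      apply lp.ext; funext j
      rcases j with n | t
      · simp [co, S_smul]
      · simp [co, abs_mul]
    change ‖vec (c • u)‖ = ‖c‖ * ‖vec u‖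
    rw [this, norm_smul]; simp
  norm_triangle u v := by
    refine le_trans ?_ (norm_add_le (vec u) (vec v))
    refine lp.norm_mono (by norm_num) fun j => ?_
    rw [lp.coeFn_add, Pi.add_apply, vec_apply, vec_apply, vec_apply,
      Real.norm_of_nonneg (co_nonneg _ _),
      Real.norm_of_nonneg (add_nonneg (co_nonneg _ _) (co_nonneg _ _))]
    rcases j with n | t
    · exact S_add u v n
    · exact abs_add_le _ _
  norm_eq_zero_iff u := by
    constructor
    · intro h
      refine Y.ext fun t => ?_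
      have := co_le_norm u (.inr t)
      rw [h] at this
      exact abs_nonpos_iff.mp this
    · rintro rfl
      have : vec 0 = 0 := by
        apply lp.ext; funext j
        rcases j with n | t
        · simp [co, S_zero]
        · simp [co]
      change ‖vec 0‖ = 0
      rw [this, norm_zero]

noncomputable instance : NormedAddCommGroup Y := NormedAddCommGroup.ofCore Ycore
noncomputable instance : NormedSpace ℝ Y := NormedSpace.ofCore Ycore

lemma normsq_le (u v w : Y) (α β : ℝ)
    (h1 : ∀ n, S u n ^ 2 ≤ α * S v n ^ 2 + β * S w n ^ 2)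
    (h2 : ∀ t, u.val t ^ 2 ≤ α * v.val t ^ 2 + β * w.val t ^ 2) :
    ‖u‖ ^ 2 ≤ α * ‖v‖ ^ 2 + β * ‖w‖ ^ 2 := by
  refine hasSum_le ?_ (hasSum_co u) (((hasSum_co v).mul_left α).add ((hasSum_co w).mul_left β))
  rintro (n | t)
  · exact h1 n
  · simpa [co] using h2 t

lemma normsq_ge (u v w : Y)
    (h1 : ∀ n, S v n ^ 2 + S w n ^ 2 ≤ S u n ^ 2)
    (h2 : ∀ t, v.val t ^ 2 + w.val t ^ 2 ≤ u.val t ^ 2) :
    ‖v‖ ^ 2 + ‖w‖ ^ 2 ≤ ‖u‖ ^ 2 := by
  refine hasSum_le ?_ ((hasSum_co v).add (hasSum_co w)) (hasSum_co u)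
  rintro (n | t)
  · exact h1 n
  · simpa [co] using h2 t

lemma H2_le (u : Y) : H2 u ≤ ‖u‖ ^ 2 := by
  refine (summable_sq u).tsum_le_of_sum_le fun s => ?_
  have := sum_le_hasSum (s.map ⟨Sum.inr, Sum.inr_injective⟩) (fun j _ => sq_nonneg (co u j))
    (hasSum_co u)
  simpa [co] using this

lemma normsq_le_H2 (u : Y) (N : ℕ) (h : ∀ t : I, N ≤ t.1 → u.val t = 0) :
    ‖u‖ ^ 2 ≤ (N * N + 1) * H2 u := by
  have hs1 : HasSum (fun n : ℕ => S u n ^ 2) (∑ n ∈ Finset.range N, S u n ^ 2) :=
    hasSum_sum_of_ne_finset_zero fun n hn => by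
      rw [S_eq_zero u n fun l => h _ (by simpa using hn)]; simp
  have hs2 : HasSum (fun t : I => |u.val t| ^ 2) (H2 u) := by
    simpa [H2] using (summable_sq u).hasSum
  have hs : HasSum (fun j => co u j ^ 2) (∑ n ∈ Finset.range N, S u n ^ 2 + H2 u) :=
    HasSum.sum (f := fun j => co u j ^ 2) hs1 hs2
  rw [(hasSum_co u).unique hs]
  have : ∑ n ∈ Finset.range N, S u n ^ 2 ≤ ∑ n ∈ Finset.range N, N * H2 u := by
    refine Finset.sum_le_sum fun n hn => ?_
    refine (S_sq_le u n _ fun l hl => ps_sq_le_H2 u n l hl).trans ?_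
    have : (n + 1 : ℝ) ≤ N := by exact_mod_cast Finset.mem_range.mp hn
    exact mul_le_mul_of_nonneg_right this (H2_nonneg u)
  simp only [Finset.sum_const, Finset.card_range, nsmul_eq_mul] at this
  linarith

end Vale.Agent.P069
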